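import Mathlib

namespace Vale.Agent.Results.P199.GaloisCenter

open Polynomial

universe u

section aux

variable {k : Type u} [Field k] {D : Type u} [DivisionRing D] [Algebra k D]
variable {K : Type u} [Field K] [Algebra k K]

/-- left multiplication by `psi c`, as a ring hom into the k-linear endomorphisms of `D` -/
noncomputable def lcoef (psi : K →ₐ[k] D) : K →+* Module.End k D :=
  ((Algebra.lmul k D).toRingHom).comp psi.toRingHom

theorem lcoef_apply (psi : K →ₐ[k] D) (c : K) (y : D) : lcoef psi c y = psi c * y := rfl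

/-- evaluation of a polynomial over `K`: coefficients act by left multiplication, the variable
by right multiplication by `a` -/
noncomputable def evalHom (psi : K →ₐ[k] D) (a : D) : K[X] →+* Module.End k D :=
  Polynomial.eval₂RingHom' (lcoef psi) (LinearMap.mulRight k a) (by
    intro c
    apply LinearMap.ext
    intro y
    simp [lcoef_apply, mul_assoc])

theorem evalHom_apply (psi : K →ₐ[k] D) (a : D) (p : K[X]) :
    evalHom psi a p = eval₂ (lcoef psi) (LinearMap.mulRight k a) p := rfl

theorem evalHom_X_sub_C (psi : K →ₐ[k] D) (a : D) (c : K) (y : D) :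
    evalHom psi a (X - C c) y = y * a - psi c * y := by
  simp [evalHom_apply, lcoef_apply]

theorem mulRight_pow (a : D) (n : ℕ) (y : D) : ((LinearMap.mulRight k a) ^ n) y = y * a ^ n := by
  induction n generalizing y with
  | zero => simp
  | succ n ih => rw [pow_succ, Module.End.mul_apply, ih, pow_succ' a n, LinearMap.mulRight_apply, mul_assoc]

theorem evalHom_map (psi : K →ₐ[k] D) (a : D) (p : k[X]) (y : D) :
    evalHom psi a (p.map (algebraMap k K)) y = y * aeval a p := by
  induction p using Polynomial.induction_on' with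
  | add p q hp hq => simp [hp, hq, mul_add]
  | monomial n r =>
    simp only [evalHom_apply, map_monomial, eval₂_monomial, aeval_monomial, Module.End.mul_apply,
      mulRight_pow, lcoef_apply, AlgHom.commutes]
    rw [← mul_assoc, Algebra.commutes r y, mul_assoc]

theorem key (psi : K →ₐ[k] D) (a : D) (s : Multiset K)
    (h : ∀ c ∈ s, ∀ z : D, z * a = psi c * z → z = 0) :
    ∀ y : D, evalHom psi a ((s.map (fun c => X - C c)).prod) y = 0 → y = 0 := by
  induction s using Multiset.induction with
  | empty => intro y hy; simpa using hy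
  | cons c s ih =>
    intro y hy
    rw [Multiset.map_cons, Multiset.prod_cons, mul_comm, map_mul] at hy
    have h1 := ih (fun c' hc' => h c' (Multiset.mem_cons_of_mem hc')) _ hy
    rw [evalHom_X_sub_C] at h1
    exact h c (Multiset.mem_cons_self c s) y (sub_eq_zero.mp h1)

theorem exists_conj [Algebra.IsAlgebraic k D]
    (hGal : ∀ (K : Type u) [Field K] [Algebra k K], FiniteDimensional k K → IsGalois k K)
    (a : D) (ha : ∃ y : D, y * a ≠ a * y) :
    ∃ c z : D, c ∈ Algebra.adjoin k {a} ∧ c ≠ a ∧ z ≠ 0 ∧ z * a = c * z := by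
  classical
  have hint : IsIntegral k a := Algebra.IsIntegral.isIntegral a
  have hirr : Irreducible (minpoly k a) := minpoly.irreducible hint
  have : Fact (Irreducible (minpoly k a)) := ⟨hirr⟩
  have hmonic : (minpoly k a).Monic := minpoly.monic hint
  have : Module.Finite k (AdjoinRoot (minpoly k a)) := hmonic.finite_adjoinRoot
  have hG : IsGalois k (AdjoinRoot (minpoly k a)) := hGal (AdjoinRoot (minpoly k a)) inferInstance
  let psi : AdjoinRoot (minpoly k a) →ₐ[k] D :=
    Ideal.Quotient.liftₐ (Ideal.span {minpoly k a}) (aeval a) (by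
      intro p hp
      obtain ⟨q, rfl⟩ := Ideal.mem_span_singleton.1 hp
      simp [minpoly.aeval])
  have hpsi_mk : ∀ p : k[X], psi (AdjoinRoot.mk (minpoly k a) p) = aeval a p := by
    intro p
    rfl
  have hpsi_root : psi (AdjoinRoot.root (minpoly k a)) = a := by
    rw [AdjoinRoot.root, hpsi_mk, aeval_X]
  have hpsi_inj : Function.Injective psi := psi.toRingHom.injective
  have hpsi_mem : ∀ c, psi c ∈ Algebra.adjoin k {a} := by
    intro c
    obtain ⟨p, rfl⟩ := AdjoinRoot.mk_surjective c
    rw [hpsi_mk]
    exact aeval_mem_adjoin_singleton k a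
  set r := AdjoinRoot.root (minpoly k a) with hr
  have hmin : minpoly k r = minpoly k a := by
    rw [hr, AdjoinRoot.minpoly_root hirr.ne_zero, hmonic.leadingCoeff]
    simp
  have hsplit : ((minpoly k a).map (algebraMap k (AdjoinRoot (minpoly k a)))).Splits := by
    have := Normal.splits (inferInstance : Normal k (AdjoinRoot (minpoly k a))) r
    rwa [hmin] at this
  have hsep : ((minpoly k a).map (algebraMap k (AdjoinRoot (minpoly k a)))).Separable := by
    have := Algebra.IsSeparable.isSeparable k r
    rw [IsSeparable, hmin] at this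
    exact this.map
  set s := ((minpoly k a).map (algebraMap k (AdjoinRoot (minpoly k a)))).roots with hs
  have hprod : (minpoly k a).map (algebraMap k (AdjoinRoot (minpoly k a)))
      = (s.map (fun c => X - C c)).prod :=
    hsplit.eq_prod_roots_of_monic (hmonic.map _)
  have hrs : r ∈ s := by
    rw [hs, mem_roots (hmonic.map _).ne_zero, IsRoot, eval_map, hr]
    exact AdjoinRoot.eval₂_root (minpoly k a)
  have hnodup : s.Nodup := nodup_roots hsep
  have hcons : s = r ::ₘ s.erase r := (Multiset.cons_erase hrs).symm
  have hrnot : r ∉ s.erase r := hnodup.notMem_erase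
  by_contra hcon
  have hnone : ∀ c ∈ s.erase r, ∀ z : D, z * a = psi c * z → z = 0 := by
    intro c hc z hz
    by_contra hz0
    apply hcon
    refine ⟨psi c, z, hpsi_mem c, ?_, hz0, hz⟩
    intro h
    have hcr : c = r := hpsi_inj (h.trans hpsi_root.symm)
    exact hrnot (hcr ▸ hc)
  obtain ⟨y, hy⟩ := ha
  apply hy
  have h0 : evalHom psi a ((minpoly k a).map (algebraMap k (AdjoinRoot (minpoly k a)))) y = 0 := by
    rw [evalHom_map, minpoly.aeval, mul_zero]
  rw [hprod, hcons, Multiset.map_cons, Multiset.prod_cons, mul_comm, map_mul] at h0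
  have h1 := key psi a (s.erase r) hnone _ h0
  rw [evalHom_X_sub_C, hpsi_root] at h1
  exact sub_eq_zero.mp h1

theorem eq_of_conj [Algebra.IsAlgebraic k D]
    (hW : ∀ (E : Type u) [DivisionRing E] [Algebra k E], FiniteDimensional k E →
      ∀ x y : E, x * y = y * x)
    (a c z : D) (hc : c ∈ Algebra.adjoin k {a}) (hz : z ≠ 0) (h : z * a = c * z) : c = a := by
  have hB1 : ∀ p ∈ Algebra.adjoin k {a}, ∃ p' ∈ Algebra.adjoin k {a}, z * p = p' * z := by
    intro p hp
    induction hp using Algebra.adjoin_induction with
    | mem x hx =>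
      obtain rfl := Set.mem_singleton_iff.1 hx
      exact ⟨c, hc, h⟩
    | algebraMap r =>
      exact ⟨algebraMap k D r, Subalgebra.algebraMap_mem _ r, (Algebra.commutes r z).symm⟩
    | add x y hx hy ihx ihy =>
      obtain ⟨x', hx', ex⟩ := ihx
      obtain ⟨y', hy', ey⟩ := ihy
      exact ⟨x' + y', add_mem hx' hy', by rw [mul_add, ex, ey, add_mul]⟩
    | mul x y hx hy ihx ihy =>
      obtain ⟨x', hx', ex⟩ := ihx
      obtain ⟨y', hy', ey⟩ := ihy
      exact ⟨x' * y', mul_mem hx' hy', by rw [← mul_assoc, ex, mul_assoc, ey, mul_assoc]⟩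
  set M : Submodule k D :=
    (Algebra.adjoin k {a}).toSubmodule * (Algebra.adjoin k {z}).toSubmodule with hM
  have hMfg : M.FG :=
    Submodule.FG.mul (IsIntegral.fg_adjoin_singleton (Algebra.IsIntegral.isIntegral a))
      (IsIntegral.fg_adjoin_singleton (Algebra.IsIntegral.isIntegral z))
  have hone : (1 : D) ∈ M := by
    have := Submodule.mul_mem_mul (M := (Algebra.adjoin k {a}).toSubmodule)
      (N := (Algebra.adjoin k {z}).toSubmodule) (Subalgebra.one_mem _) (Subalgebra.one_mem _)
    simpa using this
  have ha_mul : ∀ v ∈ M, a * v ∈ M := by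
    intro v hv
    refine Submodule.mul_induction_on hv ?_ ?_
    · intro p hp q hq
      rw [← mul_assoc]
      exact Submodule.mul_mem_mul
        (Subalgebra.mul_mem _ (Algebra.subset_adjoin (Set.mem_singleton a)) hp) hq
    · intro x y hx hy
      rw [mul_add]
      exact add_mem hx hy
  have hz_mul : ∀ v ∈ M, z * v ∈ M := by
    intro v hv
    refine Submodule.mul_induction_on hv ?_ ?_
    · intro p hp q hq
      obtain ⟨p', hp', e⟩ := hB1 p hp
      rw [← mul_assoc, e, mul_assoc]
      exact Submodule.mul_mem_mul hp'
        (Subalgebra.mul_mem _ (Algebra.subset_adjoin (Set.mem_singleton z)) hq)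
    · intro x y hx hy
      rw [mul_add]
      exact add_mem hx hy
  have hsub : ∀ x ∈ Algebra.adjoin k ({a, z} : Set D), ∀ v ∈ M, x * v ∈ M := by
    intro x hx
    induction hx using Algebra.adjoin_induction with
    | mem x hx =>
      rcases hx with rfl | hx
      · exact ha_mul
      · obtain rfl := Set.mem_singleton_iff.1 hx
        exact hz_mul
    | algebraMap r =>
      intro v hv
      rw [← Algebra.smul_def]
      exact Submodule.smul_mem _ _ hv
    | add x y hx hy ihx ihy =>
      intro v hv
      rw [add_mul]
      exact add_mem (ihx v hv) (ihy v hv)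
    | mul x y hx hy ihx ihy =>
      intro v hv
      rw [mul_assoc]
      exact ihx _ (ihy v hv)
  have hle : (Algebra.adjoin k ({a, z} : Set D)).toSubmodule ≤ M := by
    intro x hx
    have := hsub x hx 1 hone
    rwa [mul_one] at this
  have hMfin : FiniteDimensional k M := Module.Finite.iff_fg.2 hMfg
  have hfin : FiniteDimensional k (Algebra.adjoin k ({a, z} : Set D)) :=
    Submodule.finiteDimensional_of_le hle
  let _ : DivisionRing (Algebra.adjoin k ({a, z} : Set D)) :=
    divisionRingOfFiniteDimensional k (Algebra.adjoin k ({a, z} : Set D))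
  have hcomm := hW (Algebra.adjoin k ({a, z} : Set D)) hfin
    ⟨a, Algebra.subset_adjoin (by simp)⟩ ⟨z, Algebra.subset_adjoin (by simp)⟩
  have haz : a * z = z * a := congrArg Subtype.val hcomm
  rw [h] at haz
  exact (mul_right_cancel₀ hz haz).symm

end aux

theorem result (k : Type u) [Field k]
    (hGal : ∀ (K : Type u) [Field K] [Algebra k K], FiniteDimensional k K → IsGalois k K)
    (hW : ∀ (E : Type u) [DivisionRing E] [Algebra k E], FiniteDimensional k E →
      ∀ x y : E, x * y = y * x)
    (D : Type u) [DivisionRing D] [Algebra k D] [Algebra.IsAlgebraic k D] :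
    (∀ x y : D, x * y = y * x) ∧
      ∀ S : Finset D, FiniteDimensional k (Algebra.adjoin k (S : Set D)) := by
  have hcomm : ∀ x y : D, x * y = y * x := by
    intro x y
    by_contra hxy
    obtain ⟨c, z, hc, hca, hz, hzc⟩ := exists_conj hGal y ⟨x, hxy⟩
    exact hca (eq_of_conj hW y c z hc hz hzc)
  refine ⟨hcomm, fun S => ?_⟩
  let _ : CommRing D := { (inferInstance : Ring D) with mul_comm := hcomm }
  have := fg_adjoin_of_finite (R := k) (A := D) S.finite_toSet
    (fun x _ => Algebra.IsIntegral.isIntegral x)
  exact Module.Finite.iff_fg.2 this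

end Vale.Agent.Results.P199.GaloisCenter
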