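import Mathlib

namespace Vale.Agent.Results.P199.RigidSubfields

open Polynomial

universe u

section aux

variable {k : Type u} [Field k] {D : Type u} [DivisionRing D] [Algebra k D]
variable {K : Type u} [Field K] [Algebra k K]

/-- left multiplication by `psi c`, as a ring hom into the k-linear endomorphisms of `D` -/
noncomputable def lcoef (psi : K →ₐ[k] D) : K →+* Module.End k D :=
  ((Algebra.lmul k D).toRingHom).comp psi.toRingHom

theorem lcoef_apply (psi : K →ₐ[k] D) (c : K) (y : D) : lcoef psi c y = psi c * y := rfl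

/-- evaluation of a polynomial over `K`: coefficients act by left multiplication, the variable
by right multiplication by `a` -/
noncomputable def evalHom (psi : K →ₐ[k] D) (a : D) : K[X] →+* Module.End k D :=
  Polynomial.eval₂RingHom' (lcoef psi) (LinearMap.mulRight k a) (by
    intro c
    apply LinearMap.ext
    intro y
    simp [lcoef_apply, mul_assoc])

theorem evalHom_apply (psi : K →ₐ[k] D) (a : D) (p : K[X]) :
    evalHom psi a p = eval₂ (lcoef psi) (LinearMap.mulRight k a) p := rfl

theorem evalHom_X_sub_C (psi : K →ₐ[k] D) (a : D) (c : K) (y : D) :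
    evalHom psi a (X - C c) y = y * a - psi c * y := by
  simp [evalHom_apply, lcoef_apply]

theorem mulRight_pow (a : D) (n : ℕ) (y : D) : ((LinearMap.mulRight k a) ^ n) y = y * a ^ n := by
  induction n generalizing y with
  | zero => simp
  | succ n ih => rw [pow_succ, Module.End.mul_apply, ih, pow_succ' a n, LinearMap.mulRight_apply, mul_assoc]

theorem evalHom_map (psi : K →ₐ[k] D) (a : D) (p : k[X]) (y : D) :
    evalHom psi a (p.map (algebraMap k K)) y = y * aeval a p := by
  induction p using Polynomial.induction_on' with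
  | add p q hp hq => simp [hp, hq, mul_add]
  | monomial n r =>
    simp only [evalHom_apply, map_monomial, eval₂_monomial, aeval_monomial, Module.End.mul_apply,
      mulRight_pow, lcoef_apply, AlgHom.commutes]
    rw [← mul_assoc, Algebra.commutes r y, mul_assoc]

/-- Left and right multiplications are independent over the centre: if the `v i` are linearly
independent over the centre `k` and `∑ u i * y * v i = 0` for every `y`, then all `u i` vanish. -/
theorem indep (hcenter : ∀ z : D, (∀ y : D, z * y = y * z) → z ∈ Set.range (algebraMap k D))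
    {ι : Type} (v : ι → D) (hv : LinearIndependent k v) (s : Finset ι) :
    ∀ u : ι → D, (∀ y : D, ∑ i ∈ s, u i * y * v i = 0) → ∀ i ∈ s, u i = 0 := by
  classical
  induction s using Finset.induction_on with
  | empty => intro u _ i hi; simp at hi
  | insert j s hj ih =>
    intro u hu
    have huj : u j = 0 := by
      by_contra hne
      have hrel : ∀ y, ∑ i ∈ insert j s, (u i * (u j)⁻¹) * y * v i = 0 := by
        intro y
        have h0 := hu ((u j)⁻¹ * y)
        rw [← h0]
        apply Finset.sum_congr rfl
        intro i _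
        simp only [mul_assoc]
      have hjj : u j * (u j)⁻¹ = 1 := mul_inv_cancel₀ hne
      have hcomm : ∀ d : D, ∀ i ∈ s, (u i * (u j)⁻¹) * d - d * (u i * (u j)⁻¹) = 0 := by
        intro d
        apply ih (fun i => (u i * (u j)⁻¹) * d - d * (u i * (u j)⁻¹))
        intro y
        have h1 := hrel (d * y)
        have h2 := congrArg (fun t => d * t) (hrel y)
        simp only [mul_zero] at h2
        rw [Finset.sum_insert hj, hjj, one_mul] at h1 h2
        rw [mul_add, Finset.mul_sum] at h2
        have h3 : ∑ i ∈ s, ((u i * (u j)⁻¹) * d - d * (u i * (u j)⁻¹)) * y * v i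
            = ∑ i ∈ s, (u i * (u j)⁻¹) * (d * y) * v i
              - ∑ i ∈ s, d * ((u i * (u j)⁻¹) * y * v i) := by
          rw [← Finset.sum_sub_distrib]
          apply Finset.sum_congr rfl
          intro i _
          simp only [sub_mul, mul_assoc]
        rw [h3]
        have e1 : ∑ i ∈ s, (u i * (u j)⁻¹) * (d * y) * v i = -(d * y * v j) :=
          eq_neg_of_add_eq_zero_right h1
        have e2 : ∑ i ∈ s, d * ((u i * (u j)⁻¹) * y * v i) = -(d * (y * v j)) :=
          eq_neg_of_add_eq_zero_right h2
        rw [e1, e2, mul_assoc]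
        simp
      have hcen : ∀ i, ∃ c : k, i ∈ insert j s → algebraMap k D c = u i * (u j)⁻¹ := by
        intro i
        by_cases hi : i ∈ insert j s
        · have hz : ∀ y : D, (u i * (u j)⁻¹) * y = y * (u i * (u j)⁻¹) := by
            intro y
            rcases Finset.mem_insert.1 hi with rfl | his
            · rw [hjj, one_mul, mul_one]
            · exact sub_eq_zero.mp (hcomm y i his)
          obtain ⟨c, hc⟩ := hcenter _ hz
          exact ⟨c, fun _ => hc⟩
        · exact ⟨0, fun h => absurd h hi⟩
      choose g hg using hcen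
      have hsum : ∑ i ∈ insert j s, g i • v i = 0 := by
        have h0 := hrel 1
        rw [← h0]
        apply Finset.sum_congr rfl
        intro i hi
        rw [Algebra.smul_def, hg i hi, mul_one]
      have hgj := linearIndependent_iff'.1 hv (insert j s) g hsum j (Finset.mem_insert_self j s)
      have h1 := hg j (Finset.mem_insert_self j s)
      rw [hgj, map_zero, hjj] at h1
      exact zero_ne_one h1
    have hs : ∀ i ∈ s, u i = 0 := by
      apply ih u
      intro y
      have h0 := hu y
      rw [Finset.sum_insert hj, huj, zero_mul, zero_mul, zero_add] at h0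
      exact h0
    intro i hi
    rcases Finset.mem_insert.1 hi with rfl | his
    · exact huj
    · exact hs i his

/-- a nonzero polynomial of degree below that of the minimal polynomial does not act as zero -/
theorem exists_ne_zero
    (hcenter : ∀ z : D, (∀ y : D, z * y = y * z) → z ∈ Set.range (algebraMap k D))
    (psi : K →ₐ[k] D) (a : D) (h : K[X]) (hh : h ≠ 0)
    (hdeg : h.natDegree < (minpoly k a).natDegree) : ∃ y : D, evalHom psi a h y ≠ 0 := by
  by_contra hcon
  push Not at hcon
  have hsum : ∀ y : D,
      ∑ i : Fin (minpoly k a).natDegree, psi (h.coeff i) * y * a ^ (i : ℕ) = 0 := by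
    intro y
    have h0 := hcon y
    rw [evalHom_apply, eval₂_eq_sum_range' _ hdeg] at h0
    rw [Fin.sum_univ_eq_sum_range (fun i => psi (h.coeff i) * y * a ^ i), ← h0,
      LinearMap.sum_apply]
    apply Finset.sum_congr rfl
    intro i _
    rw [Module.End.mul_apply, mulRight_pow, lcoef_apply, mul_assoc]
  have hz := indep hcenter (fun i : Fin (minpoly k a).natDegree => a ^ (i : ℕ))
    (linearIndependent_pow a) Finset.univ (fun i => psi (h.coeff i)) hsum
  apply hh
  ext i
  rw [coeff_zero]
  by_cases hi : i < (minpoly k a).natDegree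
  · have h1 := hz ⟨i, hi⟩ (Finset.mem_univ _)
    have h2 : psi (h.coeff i) = psi 0 := by rw [map_zero]; exact h1
    exact psi.toRingHom.injective h2
  · exact coeff_eq_zero_of_natDegree_lt (lt_of_lt_of_le hdeg (not_lt.mp hi))

/-- Dickson-type conjugacy inside `k[a]`: every root `c` of the minimal polynomial of `a` that
lies in the image of `psi` (with `a` in that image too) is conjugate to `a`. -/
theorem core [Algebra.IsAlgebraic k D]
    (hcenter : ∀ z : D, (∀ y : D, z * y = y * z) → z ∈ Set.range (algebraMap k D))
    (psi : K →ₐ[k] D) (a : D) (c : K) (hc : aeval c (minpoly k a) = 0) :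
    ∃ z : D, z ≠ 0 ∧ z * a = psi c * z := by
  have hint : IsIntegral k a := Algebra.IsIntegral.isIntegral a
  have hmonic : (minpoly k a).Monic := minpoly.monic hint
  set f : K[X] := (minpoly k a).map (algebraMap k K) with hf
  have hfmonic : f.Monic := hmonic.map _
  have hroot : f.IsRoot c := by
    rw [IsRoot, hf, eval_map, ← aeval_def]
    exact hc
  have hmul : (X - C c) * (f /ₘ (X - C c)) = f := mul_divByMonic_eq_iff_isRoot.2 hroot
  have hne : f /ₘ (X - C c) ≠ 0 := by
    intro h0
    rw [h0, mul_zero] at hmul
    exact hfmonic.ne_zero hmul.symm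
  have hdeg : (f /ₘ (X - C c)).natDegree < (minpoly k a).natDegree := by
    rw [natDegree_divByMonic f (monic_X_sub_C c), natDegree_X_sub_C, hf,
      hmonic.natDegree_map]
    have := minpoly.natDegree_pos hint
    omega
  obtain ⟨y, hy⟩ := exists_ne_zero hcenter psi a _ hne hdeg
  refine ⟨evalHom psi a (f /ₘ (X - C c)) y, hy, ?_⟩
  have h0 : evalHom psi a f y = 0 := by
    rw [hf, evalHom_map, minpoly.aeval, mul_zero]
  rw [← hmul, map_mul, Module.End.mul_apply, evalHom_X_sub_C] at h0
  exact sub_eq_zero.mp h0

theorem eq_of_conj [Algebra.IsAlgebraic k D]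
    (hW : ∀ (E : Type u) [DivisionRing E] [Algebra k E], FiniteDimensional k E →
      ∀ x y : E, x * y = y * x)
    (a c z : D) (hc : c ∈ Algebra.adjoin k {a}) (hz : z ≠ 0) (h : z * a = c * z) : c = a := by
  have hB1 : ∀ p ∈ Algebra.adjoin k {a}, ∃ p' ∈ Algebra.adjoin k {a}, z * p = p' * z := by
    intro p hp
    induction hp using Algebra.adjoin_induction with
    | mem x hx =>
      obtain rfl := Set.mem_singleton_iff.1 hx
      exact ⟨c, hc, h⟩
    | algebraMap r =>
      exact ⟨algebraMap k D r, Subalgebra.algebraMap_mem _ r, (Algebra.commutes r z).symm⟩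
    | add x y hx hy ihx ihy =>
      obtain ⟨x', hx', ex⟩ := ihx
      obtain ⟨y', hy', ey⟩ := ihy
      exact ⟨x' + y', add_mem hx' hy', by rw [mul_add, ex, ey, add_mul]⟩
    | mul x y hx hy ihx ihy =>
      obtain ⟨x', hx', ex⟩ := ihx
      obtain ⟨y', hy', ey⟩ := ihy
      exact ⟨x' * y', mul_mem hx' hy', by rw [← mul_assoc, ex, mul_assoc, ey, mul_assoc]⟩
  set M : Submodule k D :=
    (Algebra.adjoin k {a}).toSubmodule * (Algebra.adjoin k {z}).toSubmodule with hM
  have hMfg : M.FG :=
    Submodule.FG.mul (IsIntegral.fg_adjoin_singleton (Algebra.IsIntegral.isIntegral a))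
      (IsIntegral.fg_adjoin_singleton (Algebra.IsIntegral.isIntegral z))
  have hone : (1 : D) ∈ M := by
    have := Submodule.mul_mem_mul (M := (Algebra.adjoin k {a}).toSubmodule)
      (N := (Algebra.adjoin k {z}).toSubmodule) (Subalgebra.one_mem _) (Subalgebra.one_mem _)
    simpa using this
  have ha_mul : ∀ v ∈ M, a * v ∈ M := by
    intro v hv
    refine Submodule.mul_induction_on hv ?_ ?_
    · intro p hp q hq
      rw [← mul_assoc]
      exact Submodule.mul_mem_mul
        (Subalgebra.mul_mem _ (Algebra.subset_adjoin (Set.mem_singleton a)) hp) hq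
    · intro x y hx hy
      rw [mul_add]
      exact add_mem hx hy
  have hz_mul : ∀ v ∈ M, z * v ∈ M := by
    intro v hv
    refine Submodule.mul_induction_on hv ?_ ?_
    · intro p hp q hq
      obtain ⟨p', hp', e⟩ := hB1 p hp
      rw [← mul_assoc, e, mul_assoc]
      exact Submodule.mul_mem_mul hp'
        (Subalgebra.mul_mem _ (Algebra.subset_adjoin (Set.mem_singleton z)) hq)
    · intro x y hx hy
      rw [mul_add]
      exact add_mem hx hy
  have hsub : ∀ x ∈ Algebra.adjoin k ({a, z} : Set D), ∀ v ∈ M, x * v ∈ M := by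
    intro x hx
    induction hx using Algebra.adjoin_induction with
    | mem x hx =>
      rcases hx with rfl | hx
      · exact ha_mul
      · obtain rfl := Set.mem_singleton_iff.1 hx
        exact hz_mul
    | algebraMap r =>
      intro v hv
      rw [← Algebra.smul_def]
      exact Submodule.smul_mem _ _ hv
    | add x y hx hy ihx ihy =>
      intro v hv
      rw [add_mul]
      exact add_mem (ihx v hv) (ihy v hv)
    | mul x y hx hy ihx ihy =>
      intro v hv
      rw [mul_assoc]
      exact ihx _ (ihy v hv)
  have hle : (Algebra.adjoin k ({a, z} : Set D)).toSubmodule ≤ M := by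
    intro x hx
    have := hsub x hx 1 hone
    rwa [mul_one] at this
  have hMfin : FiniteDimensional k M := Module.Finite.iff_fg.2 hMfg
  have hfin : FiniteDimensional k (Algebra.adjoin k ({a, z} : Set D)) :=
    Submodule.finiteDimensional_of_le hle
  let _ : DivisionRing (Algebra.adjoin k ({a, z} : Set D)) :=
    divisionRingOfFiniteDimensional k (Algebra.adjoin k ({a, z} : Set D))
  have hcomm := hW (Algebra.adjoin k ({a, z} : Set D)) hfin
    ⟨a, Algebra.subset_adjoin (by simp)⟩ ⟨z, Algebra.subset_adjoin (by simp)⟩
  have haz : a * z = z * a := congrArg Subtype.val hcomm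
  rw [h] at haz
  exact (mul_right_cancel₀ hz haz).symm

/-- rigidity of the subfields `k[a]` -/
theorem rigid [Algebra.IsAlgebraic k D]
    (hcenter : ∀ z : D, (∀ y : D, z * y = y * z) → z ∈ Set.range (algebraMap k D))
    (hW : ∀ (E : Type u) [DivisionRing E] [Algebra k E], FiniteDimensional k E →
      ∀ x y : E, x * y = y * x)
    (a c : D) (hc : c ∈ Algebra.adjoin k {a}) (hroot : aeval c (minpoly k a) = 0) : c = a := by
  have hint : IsIntegral k a := Algebra.IsIntegral.isIntegral a
  have hirr : Irreducible (minpoly k a) := minpoly.irreducible hint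
  have : Fact (Irreducible (minpoly k a)) := ⟨hirr⟩
  let psi : AdjoinRoot (minpoly k a) →ₐ[k] D :=
    Ideal.Quotient.liftₐ (Ideal.span {minpoly k a}) (aeval a) (by
      intro p hp
      obtain ⟨q, rfl⟩ := Ideal.mem_span_singleton.1 hp
      simp [minpoly.aeval])
  have hpsi_mk : ∀ p : k[X], psi (AdjoinRoot.mk (minpoly k a) p) = aeval a p := by
    intro p
    rfl
  have hc' := hc
  rw [Algebra.adjoin_singleton_eq_range_aeval] at hc'
  obtain ⟨p, hp⟩ := hc'
  have hp' : psi (AdjoinRoot.mk (minpoly k a) p) = c := by rw [hpsi_mk]; exact hp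
  have hc0 : aeval (AdjoinRoot.mk (minpoly k a) p) (minpoly k a) = 0 := by
    apply psi.toRingHom.injective
    have h1 := aeval_algHom_apply psi (AdjoinRoot.mk (minpoly k a) p) (minpoly k a)
    rw [hp', hroot] at h1
    rw [map_zero]
    exact h1.symm
  obtain ⟨z, hz, hza⟩ := core hcenter psi a _ hc0
  rw [hp'] at hza
  exact eq_of_conj hW a c z hc hz hza

end aux

theorem result (F : Type u) [Field F] (D : Type u) [DivisionRing D] [Algebra F D]
    [Algebra.IsAlgebraic F D]
    (hcenter : ∀ z : D, (∀ y : D, z * y = y * z) → z ∈ Set.range (algebraMap F D))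
    (hW : ∀ (E : Type u) [DivisionRing E] [Algebra F E], FiniteDimensional F E →
      ∀ x y : E, x * y = y * x) :
    (∀ a c : D, c ∈ Algebra.adjoin F {a} → aeval c (minpoly F a) = 0 → c = a) ∧
    ((∀ (K : Type u) [Field K] [Algebra F K], FiniteDimensional F K →
        (∃ x : K, x ∉ Set.range (algebraMap F K)) → ∃ σ : K ≃ₐ[F] K, ∃ x : K, σ x ≠ x) →
      (∀ x y : D, x * y = y * x) ∧
        ∀ S : Finset D, FiniteDimensional F (Algebra.adjoin F (S : Set D))) := by
  refine ⟨fun a c hc hroot => rigid hcenter hW a c hc hroot, fun hNR => ?_⟩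
  have hcomm : ∀ x y : D, x * y = y * x := by
    intro x a
    by_contra hxa
    have hint : IsIntegral F a := Algebra.IsIntegral.isIntegral a
    have hirr : Irreducible (minpoly F a) := minpoly.irreducible hint
    have : Fact (Irreducible (minpoly F a)) := ⟨hirr⟩
    have hmonic : (minpoly F a).Monic := minpoly.monic hint
    have : Module.Finite F (AdjoinRoot (minpoly F a)) := hmonic.finite_adjoinRoot
    let psi : AdjoinRoot (minpoly F a) →ₐ[F] D :=
      Ideal.Quotient.liftₐ (Ideal.span {minpoly F a}) (aeval a) (by
        intro p hp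
        obtain ⟨q, rfl⟩ := Ideal.mem_span_singleton.1 hp
        simp [minpoly.aeval])
    have hpsi_mk : ∀ p : F[X], psi (AdjoinRoot.mk (minpoly F a) p) = aeval a p := by
      intro p
      rfl
    have hpsi_root : psi (AdjoinRoot.root (minpoly F a)) = a := by
      rw [AdjoinRoot.root, hpsi_mk, aeval_X]
    have hpsi_mem : ∀ c, psi c ∈ Algebra.adjoin F {a} := by
      intro c
      obtain ⟨p, rfl⟩ := AdjoinRoot.mk_surjective c
      rw [hpsi_mk]
      exact aeval_mem_adjoin_singleton F a
    have hnot : ∃ t : AdjoinRoot (minpoly F a), t ∉ Set.range (algebraMap F _) := by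
      refine ⟨AdjoinRoot.root (minpoly F a), ?_⟩
      rintro ⟨l, hl⟩
      apply hxa
      have h1 : psi (algebraMap F _ l) = a := by rw [hl]; exact hpsi_root
      rw [AlgHom.commutes] at h1
      rw [← h1]
      exact (Algebra.commutes l x).symm
    obtain ⟨σ, t, ht⟩ := hNR (AdjoinRoot (minpoly F a)) inferInstance hnot
    have hroot0 : aeval (AdjoinRoot.root (minpoly F a)) (minpoly F a) = 0 := by
      rw [AdjoinRoot.aeval_eq, AdjoinRoot.mk_self]
    have hσroot : aeval (σ (AdjoinRoot.root (minpoly F a))) (minpoly F a) = 0 := by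
      rw [aeval_algHom_apply, hroot0, map_zero]
    have hpsiσ : aeval (psi (σ (AdjoinRoot.root (minpoly F a)))) (minpoly F a) = 0 := by
      rw [aeval_algHom_apply, hσroot, map_zero]
    have hfix := rigid hcenter hW a (psi (σ (AdjoinRoot.root (minpoly F a)))) (hpsi_mem _) hpsiσ
    have hσ : σ (AdjoinRoot.root (minpoly F a)) = AdjoinRoot.root (minpoly F a) :=
      psi.toRingHom.injective (hfix.trans hpsi_root.symm)
    apply ht
    obtain ⟨p, rfl⟩ := AdjoinRoot.mk_surjective t
    rw [← AdjoinRoot.aeval_eq, ← aeval_algHom_apply, hσ]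
  refine ⟨hcomm, fun S => ?_⟩
  let _ : CommRing D := { (inferInstance : Ring D) with mul_comm := hcomm }
  have := fg_adjoin_of_finite (R := F) (A := D) S.finite_toSet
    (fun x _ => Algebra.IsIntegral.isIntegral x)
  exact Module.Finite.iff_fg.2 this

end Vale.Agent.Results.P199.RigidSubfields
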